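import Mathlib

/-! # Hypergraphs, covers and matchings -/

namespace Ryser

/-- An `r`-partite `r`-uniform hypergraph on the finite vertex set `V`: `part v` is the part of the
vertex `v`, `E` is the set of edges, and every edge contains exactly one vertex of every part. -/
structure Hyper (r : ℕ) (V : Type) [Fintype V] [DecidableEq V] where
  part : V → Fin r
  E : Finset (Finset V)
  one : ∀ e ∈ E, ∀ i : Fin r, ∃! v, v ∈ e ∧ part v = i

variable {r : ℕ} {V : Type} [Fintype V] [DecidableEq V]

/-- `C` is a vertex cover: it meets every edge. -/
def IsCover (H : Hyper r V) (C : Finset V) : Prop := ∀ e ∈ H.E, ∃ v ∈ e, v ∈ C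

/-- The covering number: the least size of a vertex cover. -/
noncomputable def tau (H : Hyper r V) : ℕ :=
  sInf {k | ∃ C : Finset V, IsCover H C ∧ C.card = k}

/-- `M` is a matching: a set of pairwise disjoint edges. -/
def IsMatching (H : Hyper r V) (M : Finset (Finset V)) : Prop :=
  M ⊆ H.E ∧ ∀ e ∈ M, ∀ e' ∈ M, e ≠ e' → Disjoint e e'

/-- The matching number: the greatest size of a matching. -/
noncomputable def nu (H : Hyper r V) : ℕ :=
  sSup {k | ∃ M : Finset (Finset V), IsMatching H M ∧ M.card = k}

/-- The degree of a vertex: the number of edges that contain it. -/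
def deg (H : Hyper r V) (v : V) : ℕ := (H.E.filter (fun e => v ∈ e)).card

end Ryser
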