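import Vale.Agent.P045.Proof

/-! # Covers of hypergraphs of maximum degree four and five -/

namespace Ryser

open Finset

variable {r : ℕ} {V : Type} [Fintype V] [DecidableEq V]

theorem pair_cover (N : ℕ) (F : Finset (Finset V)) : (∀ e ∈ F, e.Nonempty) →
    (∀ M ⊆ F, (∀ e ∈ M, ∀ e' ∈ M, e ≠ e' → Disjoint e e') → M.card ≤ N) →
    ∃ C : Finset V, (∀ e ∈ F, ∃ v ∈ e, v ∈ C) ∧ 2 * C.card ≤ F.card + N := by
  refine Finset.strongInductionOn F ?_
  intro F ih hne hN
  by_cases h : ∀ e ∈ F, ∀ e' ∈ F, e ≠ e' → Disjoint e e'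
  · refine ⟨F.attach.image (fun e => (hne e.1 e.2).choose), ?_, ?_⟩
    · intro e he
      exact ⟨(hne e he).choose, (hne e he).choose_spec,
        Finset.mem_image.2 ⟨⟨e, he⟩, Finset.mem_attach _ _, rfl⟩⟩
    · have h1 : (F.attach.image (fun e => (hne e.1 e.2).choose)).card ≤ F.card := by
        refine Finset.card_image_le.trans ?_
        rw [Finset.card_attach]
      have h2 := hN F (Finset.Subset.refl _) h
      omega
  · push Not at h
    obtain ⟨e, he, e', he', hee, hd⟩ := h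
    obtain ⟨v, hv, hv'⟩ := Finset.not_disjoint_iff.1 hd
    have he'2 : e' ∈ F.erase e := Finset.mem_erase.2 ⟨fun h => hee h.symm, he'⟩
    have hss : (F.erase e).erase e' ⊂ F :=
      Finset.ssubset_of_subset_of_ssubset (Finset.erase_subset _ _) (Finset.erase_ssubset he)
    obtain ⟨C, hC1, hC2⟩ := ih _ hss (fun a ha => hne a (hss.1 ha))
      (fun M hM => hN M (hM.trans hss.1))
    refine ⟨insert v C, ?_, ?_⟩
    · intro a ha
      by_cases h1 : a = e
      · exact ⟨v, h1 ▸ hv, Finset.mem_insert_self _ _⟩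
      by_cases h2 : a = e'
      · exact ⟨v, h2 ▸ hv', Finset.mem_insert_self _ _⟩
      obtain ⟨u, hu1, hu2⟩ := hC1 a (Finset.mem_erase.2 ⟨h2, Finset.mem_erase.2 ⟨h1, ha⟩⟩)
      exact ⟨u, hu1, Finset.mem_insert_of_mem hu2⟩
    · have h1 := Finset.card_insert_le v C
      have h2 := Finset.card_erase_add_one he
      have h3 := Finset.card_erase_add_one he'2
      omega

/-- cover of part `i`: the vertices of degree at least two and a pair cover of the other edges -/
theorem tau_mixed (H : Hyper r V) (hr : 1 ≤ r) (i : Fin r) :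
    2 * tau H ≤ 2 * (univ.filter (fun v : V => 2 ≤ deg H v ∧ H.part v = i)).card
      + (univ.filter (fun v : V => deg H v = 1 ∧ H.part v = i)).card + nu H := by
  set A := univ.filter (fun v : V => 2 ≤ deg H v ∧ H.part v = i) with hA
  set B := univ.filter (fun v : V => deg H v = 1 ∧ H.part v = i) with hB
  set F := B.biUnion (fun v => H.E.filter (fun e => v ∈ e)) with hF
  have hFE : F ⊆ H.E := by
    intro e he
    obtain ⟨v, _, hv⟩ := Finset.mem_biUnion.1 he
    exact (Finset.mem_filter.1 hv).1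
  have hFc : F.card ≤ B.card := by
    refine Finset.card_biUnion_le.trans ?_
    rw [Finset.card_eq_sum_ones B]
    refine Finset.sum_le_sum fun v hv => ?_
    exact (Finset.mem_filter.1 hv).2.1.le
  obtain ⟨C, hC1, hC2⟩ := pair_cover (nu H) F (fun e he => edge_nonempty H hr (hFE he))
    (fun M hM hd => le_nu H ⟨hM.trans hFE, hd⟩)
  have h1 : tau H ≤ (A ∪ C).card := by
    refine tau_le H ?_
    intro e he
    obtain ⟨v, hv, _⟩ := H.one e he i
    by_cases hd : deg H v = 1
    · have : e ∈ F := Finset.mem_biUnion.2 ⟨v, Finset.mem_filter.2 ⟨Finset.mem_univ _, hd, hv.2⟩,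
        Finset.mem_filter.2 ⟨he, hv.1⟩⟩
      obtain ⟨u, hu1, hu2⟩ := hC1 e this
      exact ⟨u, hu1, Finset.mem_union_right _ hu2⟩
    · have hp := deg_pos H he hv.1
      exact ⟨v, hv.1, Finset.mem_union_left _
        (Finset.mem_filter.2 ⟨Finset.mem_univ _, by omega, hv.2⟩)⟩
  have h2 := Finset.card_union_le A C
  omega

/-- weight of a vertex -/
noncomputable def gw (H : Hyper r V) (v : V) : ℝ :=
  if deg H v = 0 then 0 else if deg H v = 1 then 1 else 2

theorem gw_part (H : Hyper r V) (i : Fin r) :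
    2 * ((univ.filter (fun v : V => 2 ≤ deg H v ∧ H.part v = i)).card : ℝ)
      + ((univ.filter (fun v : V => deg H v = 1 ∧ H.part v = i)).card : ℝ)
      = ∑ v ∈ univ.filter (fun v : V => H.part v = i), gw H v := by
  rw [Finset.card_filter, Finset.card_filter, Finset.sum_filter]
  push_cast
  rw [Finset.mul_sum, ← Finset.sum_add_distrib]
  refine Finset.sum_congr rfl fun v _ => ?_
  unfold gw
  by_cases hp : H.part v = i
  · by_cases h0 : deg H v = 0
    · simp [h0]
    · by_cases h1 : deg H v = 1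
      · simp [h1, hp]
      · have h2 : 2 ≤ deg H v := by omega
        simp [h0, h1, h2, hp]
  · simp [hp]

theorem gw_sum (H : Hyper r V) :
    ∑ i, (∑ v ∈ univ.filter (fun v : V => H.part v = i), gw H v)
      = ∑ e ∈ H.E, ∑ v ∈ e, gw H v / deg H v := by
  rw [Finset.sum_fiberwise]
  have h2 : ∑ e ∈ H.E, ∑ v ∈ e, gw H v / deg H v
      = ∑ v : V, ∑ e ∈ H.E.filter (fun e => v ∈ e), gw H v / deg H v := by
    rw [Finset.sum_comm' (t' := univ) (s' := fun v => H.E.filter (fun e => v ∈ e))]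
    intro e v
    simp only [Finset.mem_filter, Finset.mem_univ, and_true]
  rw [h2]
  refine Finset.sum_congr rfl fun v _ => ?_
  rw [Finset.sum_const, nsmul_eq_mul]
  show _ = (deg H v : ℝ) * (gw H v / deg H v)
  by_cases h : deg H v = 0
  · unfold gw
    simp [h]
  · have : (deg H v : ℝ) ≠ 0 := by exact_mod_cast h
    field_simp

theorem mixed_sum (H : Hyper r V) (hr : 1 ≤ r) :
    (r : ℝ) * (2 * tau H - nu H) ≤ ∑ e ∈ H.E, ∑ v ∈ e, gw H v / deg H v := by
  rw [← gw_sum]
  have h1 : (r : ℝ) * (2 * tau H - nu H) = ∑ _i : Fin r, ((2 : ℝ) * tau H - nu H) := by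
    rw [Finset.sum_const, Finset.card_univ, Fintype.card_fin, nsmul_eq_mul]
  rw [h1]
  refine Finset.sum_le_sum fun i _ => ?_
  rw [← gw_part]
  have h2 : (2 : ℝ) * tau H ≤ 2 * ((univ.filter (fun v : V => 2 ≤ deg H v ∧ H.part v = i)).card : ℝ)
      + ((univ.filter (fun v : V => deg H v = 1 ∧ H.part v = i)).card : ℝ) + nu H := by
    exact_mod_cast tau_mixed H hr i
  linarith

theorem gw_edge (H : Hyper r V) (D : ℕ) (hD : 2 ≤ D) (hdeg : ∀ v, deg H v ≤ D)
    {e : Finset V} (he : e ∈ H.E) :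
    ∑ v ∈ e, gw H v / deg H v
      ≤ (((D : ℝ) + 1) * r - ∑ v ∈ e, ((deg H v : ℝ) - 1)) / D := by
  have hD0 : (0 : ℝ) < D := by
    have : 0 < D := by omega
    exact_mod_cast this
  have h1 : ∀ v ∈ e, gw H v / deg H v ≤ (((D : ℝ) + 1) - ((deg H v : ℝ) - 1)) / D := by
    intro v hv
    have hp := deg_pos H he hv
    have hp' : (0 : ℝ) < deg H v := by exact_mod_cast hp
    have hd := hdeg v
    have hd' : (deg H v : ℝ) ≤ D := by exact_mod_cast hd
    rw [div_le_div_iff₀ hp' hD0]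
    unfold gw
    rw [if_neg hp.ne']
    by_cases h : deg H v = 1
    · rw [if_pos h, h]
      push_cast
      linarith
    · rw [if_neg h]
      have h2 : 2 ≤ deg H v := by omega
      have h2' : (2 : ℝ) ≤ deg H v := by exact_mod_cast h2
      nlinarith [mul_nonneg (sub_nonneg.2 h2') (sub_nonneg.2 hd')]
  refine (Finset.sum_le_sum h1).trans (le_of_eq ?_)
  rw [← Finset.sum_div, Finset.sum_sub_distrib, Finset.sum_const, nsmul_eq_mul, edge_card H he]
  ring

theorem five_real (H : Hyper r V) (hr : 1 ≤ r) (D : ℕ) (hD : 2 ≤ D) (hdeg : ∀ v, deg H v ≤ D) :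
    (r : ℝ) * (2 * tau H - nu H) ≤ (((D : ℝ) + 1) * r + 1) ^ 2 / (4 * D) * nu H := by
  have hD0 : (0 : ℝ) < D := by
    have : 0 < D := by omega
    exact_mod_cast this
  set K : ℝ := (((D : ℝ) + 1) * r + 1) ^ 2 / (4 * D) with hK
  have hK0 : 0 ≤ K := by positivity
  obtain ⟨M, hM1, hM2, hM3⟩ := cw H.E (fun e he => edge_nonempty H hr he)
  have hM4 : (M.card : ℝ) ≤ nu H := by exact_mod_cast le_nu H ⟨hM1, hM2⟩
  calc (r : ℝ) * (2 * tau H - nu H) ≤ ∑ e ∈ H.E, ∑ v ∈ e, gw H v / deg H v := mixed_sum H hr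
    _ ≤ ∑ e ∈ H.E, K * (1 / ((H.E.filter (fun e' => ¬ Disjoint e e')).card : ℝ)) := by
        refine Finset.sum_le_sum fun e he => ?_
        have hpos : 0 < (H.E.filter (fun e' => ¬ Disjoint e e')).card := by
          refine Finset.card_pos.2 ⟨e, Finset.mem_filter.2 ⟨he, ?_⟩⟩
          obtain ⟨v, hv⟩ := edge_nonempty H hr he
          exact fun hd => (Finset.disjoint_left.1 hd hv) hv
        have hpos' : (0 : ℝ) < (H.E.filter (fun e' => ¬ Disjoint e e')).card := by
          exact_mod_cast hpos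
        have hS0 : 0 ≤ ∑ v ∈ e, ((deg H v : ℝ) - 1) := Finset.sum_nonneg fun v hv => by
          have : 1 ≤ deg H v := deg_pos H he hv
          have : (1 : ℝ) ≤ deg H v := by exact_mod_cast this
          linarith
        have hg0 : 0 ≤ ∑ v ∈ e, gw H v / deg H v := Finset.sum_nonneg fun v _ => by
          refine div_nonneg ?_ (Nat.cast_nonneg _)
          unfold gw
          split_ifs <;> norm_num
        rw [mul_one_div, le_div_iff₀ hpos', mul_comm]
        refine (mul_le_mul_of_nonneg_right (nbr_le H he) hg0).trans ?_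
        refine (mul_le_mul_of_nonneg_left (gw_edge H D hD hdeg he) (by linarith)).trans ?_
        rw [hK, mul_div_assoc', div_le_div_iff₀ hD0 (by positivity)]
        have h5 := sq_nonneg (2 * (∑ v ∈ e, ((deg H v : ℝ) - 1)) + 1 - ((D : ℝ) + 1) * r)
        have h6 : 4 * ((1 + ∑ v ∈ e, ((deg H v : ℝ) - 1)) *
            (((D : ℝ) + 1) * r - ∑ v ∈ e, ((deg H v : ℝ) - 1)))
            ≤ (((D : ℝ) + 1) * r + 1) ^ 2 := by nlinarith
        nlinarith [mul_le_mul_of_nonneg_right h6 hD0.le]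
    _ = K * ∑ e ∈ H.E, 1 / ((H.E.filter (fun e' => ¬ Disjoint e e')).card : ℝ) := by
        rw [Finset.mul_sum]
    _ ≤ K * nu H := mul_le_mul_of_nonneg_left (hM3.trans hM4) hK0

theorem five_nat (H : Hyper r V) (hr : 1 ≤ r) (D : ℕ) (hD : 2 ≤ D) (hdeg : ∀ v, deg H v ≤ D) :
    8 * D * r * tau H ≤ (((D + 1) * r + 1) ^ 2 + 4 * D * r) * nu H := by
  have hD0 : (0 : ℝ) < D := by
    have : 0 < D := by omega
    exact_mod_cast this
  have h := five_real H hr D hD hdeg
  have h1 : ((8 * D * r * tau H : ℕ) : ℝ) ≤ (((((D + 1) * r + 1) ^ 2 + 4 * D * r) * nu H : ℕ) : ℝ) := by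
    push_cast
    have h2 := mul_le_mul_of_nonneg_left h (show (0 : ℝ) ≤ 4 * D by positivity)
    have h3 : (4 : ℝ) * D * ((((D : ℝ) + 1) * r + 1) ^ 2 / (4 * D) * nu H)
        = (((D : ℝ) + 1) * r + 1) ^ 2 * nu H := by
      field_simp
    rw [h3] at h2
    nlinarith
  exact_mod_cast h1

theorem max_four (H : Hyper r V) (hr : 9 ≤ r) (hdeg : ∀ v, deg H v ≤ 4) :
    tau H ≤ (r - 1) * nu H := by
  have h := five_nat H (by omega) 4 (by norm_num) hdeg
  obtain ⟨k, rfl⟩ : ∃ k, r = k + 9 := ⟨r - 9, by omega⟩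
  have e1 : k + 9 - 1 = k + 8 := by omega
  rw [e1]
  have h2 : (((4 + 1) * (k + 9) + 1) ^ 2 + 4 * 4 * (k + 9)) ≤ 8 * 4 * (k + 9) * (k + 8) := by
    nlinarith
  have h3 : 8 * 4 * (k + 9) * tau H ≤ 8 * 4 * (k + 9) * ((k + 8) * nu H) := by
    refine h.trans ?_
    rw [← mul_assoc]
    exact Nat.mul_le_mul_right _ h2
  exact Nat.le_of_mul_le_mul_left h3 (by positivity)

theorem max_five (H : Hyper r V) (hr : 19 ≤ r) (hdeg : ∀ v, deg H v ≤ 5) :
    tau H ≤ (r - 1) * nu H := by
  have h := five_nat H (by omega) 5 (by norm_num) hdeg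
  obtain ⟨k, rfl⟩ : ∃ k, r = k + 19 := ⟨r - 19, by omega⟩
  have e1 : k + 19 - 1 = k + 18 := by omega
  rw [e1]
  have h2 : (((5 + 1) * (k + 19) + 1) ^ 2 + 4 * 5 * (k + 19)) ≤ 8 * 5 * (k + 19) * (k + 18) := by
    nlinarith
  have h3 : 8 * 5 * (k + 19) * tau H ≤ 8 * 5 * (k + 19) * ((k + 18) * nu H) := by
    refine h.trans ?_
    rw [← mul_assoc]
    exact Nat.mul_le_mul_right _ h2
  exact Nat.le_of_mul_le_mul_left h3 (by positivity)

end Ryser
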