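import Vale.Agent.P045.Defs

/-! # Degree criteria for the inequality between covers and matchings -/

namespace Ryser

open Finset

variable {r : ℕ} {V : Type} [Fintype V] [DecidableEq V]

/-- greedy matching (Caro-Wei) -/
theorem cw (F : Finset (Finset V)) : (∀ e ∈ F, e.Nonempty) →
    ∃ M ⊆ F, (∀ e ∈ M, ∀ e' ∈ M, e ≠ e' → Disjoint e e') ∧
      ∑ e ∈ F, 1 / ((F.filter (fun e' => ¬ Disjoint e e')).card : ℝ) ≤ M.card := by
  refine Finset.strongInductionOn F ?_
  intro F ih hne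
  rcases F.eq_empty_or_nonempty with hF | hF
  · subst hF
    exact ⟨∅, by simp, by simp, by simp⟩
  obtain ⟨e0, he0, hmin⟩ := Finset.exists_min_image F
    (fun e => (F.filter (fun e' => ¬ Disjoint e e')).card) hF
  have hself : ∀ e ∈ F, ¬ Disjoint e e := by
    intro e he hd
    obtain ⟨v, hv⟩ := hne e he
    exact (Finset.disjoint_left.1 hd hv) hv
  have hsub : F.filter (fun e' => Disjoint e0 e') ⊂ F := by
    rw [Finset.ssubset_iff_of_subset (Finset.filter_subset _ _)]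
    refine ⟨e0, he0, ?_⟩
    rw [Finset.mem_filter]
    exact fun h => hself e0 he0 h.2
  obtain ⟨M, hM1, hM2, hM3⟩ := ih _ hsub (fun e he => hne e (Finset.mem_filter.1 he).1)
  have he0M : e0 ∉ M := fun h => hself e0 he0 (Finset.mem_filter.1 (hM1 h)).2
  refine ⟨insert e0 M, ?_, ?_, ?_⟩
  · intro e he
    rcases Finset.mem_insert.1 he with h | h
    · rw [h]
      exact he0
    · exact (Finset.mem_filter.1 (hM1 h)).1
  · intro e he e' he' hee
    rcases Finset.mem_insert.1 he with h | h <;> rcases Finset.mem_insert.1 he' with h' | h'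
    · exact absurd (h.trans h'.symm) hee
    · rw [h]
      exact (Finset.mem_filter.1 (hM1 h')).2
    · rw [h']
      exact ((Finset.mem_filter.1 (hM1 h)).2).symm
    · exact hM2 e h e' h' hee
  · rw [Finset.card_insert_of_notMem he0M,
      ← Finset.sum_filter_add_sum_filter_not F (fun e' => Disjoint e0 e')]
    have hN0 : 0 < (F.filter (fun e' => ¬ Disjoint e0 e')).card :=
      Finset.card_pos.2 ⟨e0, Finset.mem_filter.2 ⟨he0, hself e0 he0⟩⟩
    have h1 : ∑ e ∈ F.filter (fun e' => ¬ Disjoint e0 e'),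
        1 / ((F.filter (fun e' => ¬ Disjoint e e')).card : ℝ) ≤ 1 := by
      calc ∑ e ∈ F.filter (fun e' => ¬ Disjoint e0 e'),
            1 / ((F.filter (fun e' => ¬ Disjoint e e')).card : ℝ)
          ≤ ∑ _e ∈ F.filter (fun e' => ¬ Disjoint e0 e'),
            1 / ((F.filter (fun e' => ¬ Disjoint e0 e')).card : ℝ) := by
            refine Finset.sum_le_sum fun e he => ?_
            have := hmin e (Finset.mem_filter.1 he).1
            exact one_div_le_one_div_of_le (by exact_mod_cast hN0) (by exact_mod_cast this)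
        _ = 1 := by
            rw [Finset.sum_const, nsmul_eq_mul]
            have : ((F.filter (fun e' => ¬ Disjoint e0 e')).card : ℝ) ≠ 0 := by
              exact_mod_cast hN0.ne'
            field_simp
    have h2 : ∑ e ∈ F.filter (fun e' => Disjoint e0 e'),
        1 / ((F.filter (fun e' => ¬ Disjoint e e')).card : ℝ) ≤ M.card := by
      refine le_trans (Finset.sum_le_sum fun e he => ?_) hM3
      have hpos : 0 < ((F.filter (fun e' => Disjoint e0 e')).filter
          (fun e' => ¬ Disjoint e e')).card :=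
        Finset.card_pos.2 ⟨e, Finset.mem_filter.2 ⟨he, hself e (Finset.mem_filter.1 he).1⟩⟩
      have hle : ((F.filter (fun e' => Disjoint e0 e')).filter
          (fun e' => ¬ Disjoint e e')).card ≤ (F.filter (fun e' => ¬ Disjoint e e')).card :=
        Finset.card_le_card (Finset.filter_subset_filter _ (Finset.filter_subset _ _))
      exact one_div_le_one_div_of_le (by exact_mod_cast hpos) (by exact_mod_cast hle)
    push_cast
    linarith

theorem edge_nonempty (H : Hyper r V) (hr : 1 ≤ r) {e : Finset V} (he : e ∈ H.E) :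
    e.Nonempty := by
  obtain ⟨v, hv, _⟩ := H.one e he ⟨0, hr⟩
  exact ⟨v, hv.1⟩

theorem deg_pos (H : Hyper r V) {e : Finset V} (he : e ∈ H.E) {v : V} (hv : v ∈ e) :
    0 < deg H v :=
  Finset.card_pos.2 ⟨e, Finset.mem_filter.2 ⟨he, hv⟩⟩

/-- number of edges meeting `e` -/
theorem nbr_le (H : Hyper r V) {e : Finset V} (he : e ∈ H.E) :
    ((H.E.filter (fun e' => ¬ Disjoint e e')).card : ℝ) ≤ 1 + ∑ v ∈ e, ((deg H v : ℝ) - 1) := by
  have h1 : H.E.filter (fun e' => ¬ Disjoint e e')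
      ⊆ insert e (e.biUnion (fun v => (H.E.filter (fun e' => v ∈ e')).erase e)) := by
    intro e' he'
    rw [Finset.mem_filter] at he'
    rw [Finset.mem_insert]
    by_cases h : e' = e
    · exact Or.inl h
    · right
      rw [Finset.mem_biUnion]
      obtain ⟨v, hv1, hv2⟩ := Finset.not_disjoint_iff.1 he'.2
      exact ⟨v, hv1, Finset.mem_erase.2 ⟨h, Finset.mem_filter.2 ⟨he'.1, hv2⟩⟩⟩
  have h2 : (H.E.filter (fun e' => ¬ Disjoint e e')).card
      ≤ 1 + ∑ v ∈ e, ((H.E.filter (fun e' => v ∈ e')).erase e).card := by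
    refine (Finset.card_le_card h1).trans ((Finset.card_insert_le _ _).trans ?_)
    rw [add_comm]
    exact Nat.add_le_add_left Finset.card_biUnion_le 1
  have h3 : ∀ v ∈ e, (((H.E.filter (fun e' => v ∈ e')).erase e).card : ℝ)
      = (deg H v : ℝ) - 1 := by
    intro v hv
    have hm : e ∈ H.E.filter (fun e' => v ∈ e') := Finset.mem_filter.2 ⟨he, hv⟩
    have h4 := Finset.card_erase_add_one hm
    have h5 : (((H.E.filter (fun e' => v ∈ e')).erase e).card : ℝ) + 1 = (deg H v : ℝ) := by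
      rw [deg]
      exact_mod_cast h4
    linarith
  calc ((H.E.filter (fun e' => ¬ Disjoint e e')).card : ℝ)
      ≤ ((1 + ∑ v ∈ e, ((H.E.filter (fun e' => v ∈ e')).erase e).card : ℕ) : ℝ) := by
        exact_mod_cast h2
    _ = 1 + ∑ v ∈ e, (((H.E.filter (fun e' => v ∈ e')).erase e).card : ℝ) := by push_cast; rfl
    _ = _ := by rw [Finset.sum_congr rfl h3]

theorem le_nu (H : Hyper r V) {M : Finset (Finset V)} (hM : IsMatching H M) :
    M.card ≤ nu H := by
  refine le_csSup ⟨H.E.card, ?_⟩ ⟨M, hM, rfl⟩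
  rintro k ⟨M', hM', rfl⟩
  exact Finset.card_le_card hM'.1

theorem tau_le (H : Hyper r V) {C : Finset V} (hC : IsCover H C) : tau H ≤ C.card :=
  Nat.sInf_le ⟨C, hC, rfl⟩

theorem tau_le_part (H : Hyper r V) (i : Fin r) :
    tau H ≤ (univ.filter (fun v : V => 0 < deg H v ∧ H.part v = i)).card := by
  refine tau_le H ?_
  intro e he
  obtain ⟨v, hv, _⟩ := H.one e he i
  exact ⟨v, hv.1, Finset.mem_filter.2 ⟨Finset.mem_univ _, deg_pos H he hv.1, hv.2⟩⟩

theorem weight_sum (H : Hyper r V) (w : Fin r → ℝ) :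
    ∑ i, w i * ((univ.filter (fun v : V => 0 < deg H v ∧ H.part v = i)).card : ℝ)
      = ∑ e ∈ H.E, ∑ v ∈ e, w (H.part v) / deg H v := by
  have h1 : ∀ i : Fin r, w i * ((univ.filter (fun v : V => 0 < deg H v ∧ H.part v = i)).card : ℝ)
      = ∑ v ∈ (univ.filter (fun v : V => 0 < deg H v)).filter (fun v => H.part v = i),
        w (H.part v) := by
    intro i
    rw [Finset.filter_filter]
    have : ∀ v ∈ univ.filter (fun v : V => 0 < deg H v ∧ H.part v = i),
        w (H.part v) = w i := by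
      intro v hv
      rw [(Finset.mem_filter.1 hv).2.2]
    rw [Finset.sum_congr rfl this, Finset.sum_const, nsmul_eq_mul]
    ring
  simp only [h1]
  rw [Finset.sum_fiberwise]
  have h2 : ∑ e ∈ H.E, ∑ v ∈ e, w (H.part v) / deg H v
      = ∑ v : V, ∑ e ∈ H.E.filter (fun e => v ∈ e), w (H.part v) / deg H v := by
    rw [Finset.sum_comm' (t' := univ) (s' := fun v => H.E.filter (fun e => v ∈ e))]
    intro e v
    simp only [Finset.mem_filter, Finset.mem_univ, and_true]
  rw [h2, Finset.sum_filter]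
  refine Finset.sum_congr rfl fun v _ => ?_
  rw [Finset.sum_const, nsmul_eq_mul]
  show _ = (deg H v : ℝ) * (w (H.part v) / deg H v)
  split_ifs with h
  · have : (deg H v : ℝ) ≠ 0 := by exact_mod_cast h.ne'
    field_simp
  · have : deg H v = 0 := by omega
    rw [this]
    simp

/-- the criterion -/
theorem criterion (H : Hyper r V) (hr : 1 ≤ r) (w : Fin r → ℝ) (hw : ∀ i, 0 ≤ w i)
    (hw1 : ∑ i, w i = 1) (K : ℝ)
    (h : ∀ e ∈ H.E, (1 + ∑ v ∈ e, ((deg H v : ℝ) - 1)) * ∑ v ∈ e, w (H.part v) / deg H v ≤ K) :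
    (tau H : ℝ) ≤ K * nu H := by
  have h1 : (tau H : ℝ) ≤ ∑ e ∈ H.E, ∑ v ∈ e, w (H.part v) / deg H v := by
    rw [← weight_sum]
    calc (tau H : ℝ) = ∑ i, w i * (tau H : ℝ) := by rw [← Finset.sum_mul, hw1, one_mul]
      _ ≤ _ := Finset.sum_le_sum fun i _ => mul_le_mul_of_nonneg_left
          (by exact_mod_cast tau_le_part H i) (hw i)
  rcases H.E.eq_empty_or_nonempty with hE | hE
  · rw [hE, Finset.sum_empty] at h1
    have h2 : nu H = 0 := by
      rw [nu]
      apply Nat.eq_zero_of_le_zero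
      refine csSup_le ⟨0, ∅, ⟨by simp, by simp⟩, by simp⟩ ?_
      rintro k ⟨M, hM, rfl⟩
      have := hM.1
      rw [hE] at this
      rw [Finset.subset_empty.1 this]
      simp
    rw [h2]
    simpa using h1
  have hS : ∀ e ∈ H.E, 0 < 1 + ∑ v ∈ e, ((deg H v : ℝ) - 1) := by
    intro e he
    have : 0 ≤ ∑ v ∈ e, ((deg H v : ℝ) - 1) := Finset.sum_nonneg fun v hv => by
      have : 1 ≤ deg H v := deg_pos H he hv
      have : (1 : ℝ) ≤ deg H v := by exact_mod_cast this
      linarith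
    linarith
  have hK : 0 ≤ K := by
    obtain ⟨e, he⟩ := hE
    refine le_trans (mul_nonneg (hS e he).le ?_) (h e he)
    exact Finset.sum_nonneg fun v _ => div_nonneg (hw _) (Nat.cast_nonneg _)
  obtain ⟨M, hM1, hM2, hM3⟩ := cw H.E (fun e he => edge_nonempty H hr he)
  have hM4 : (M.card : ℝ) ≤ nu H := by exact_mod_cast le_nu H ⟨hM1, hM2⟩
  calc (tau H : ℝ) ≤ ∑ e ∈ H.E, ∑ v ∈ e, w (H.part v) / deg H v := h1
    _ ≤ ∑ e ∈ H.E, K * (1 / ((H.E.filter (fun e' => ¬ Disjoint e e')).card : ℝ)) := by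
        refine Finset.sum_le_sum fun e he => ?_
        have hpos : 0 < (H.E.filter (fun e' => ¬ Disjoint e e')).card := by
          refine Finset.card_pos.2 ⟨e, Finset.mem_filter.2 ⟨he, ?_⟩⟩
          obtain ⟨v, hv⟩ := edge_nonempty H hr he
          exact fun hd => (Finset.disjoint_left.1 hd hv) hv
        have hpos' : (0 : ℝ) < (H.E.filter (fun e' => ¬ Disjoint e e')).card := by
          exact_mod_cast hpos
        rw [mul_one_div, le_div_iff₀ hpos']
        refine le_trans ?_ (h e he)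
        rw [mul_comm]
        refine mul_le_mul_of_nonneg_right (nbr_le H he) ?_
        exact Finset.sum_nonneg fun v _ => div_nonneg (hw _) (Nat.cast_nonneg _)
    _ = K * ∑ e ∈ H.E, 1 / ((H.E.filter (fun e' => ¬ Disjoint e e')).card : ℝ) := by
        rw [Finset.mul_sum]
    _ ≤ K * nu H := mul_le_mul_of_nonneg_left (hM3.trans hM4) hK

theorem edge_card (H : Hyper r V) {e : Finset V} (he : e ∈ H.E) : e.card = r := by
  have h1 : e.card = (univ : Finset (Fin r)).card := by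
    refine Finset.card_bij (fun v _ => H.part v) (fun _ _ => Finset.mem_univ _) ?_ ?_
    · intro v hv v' hv' hvv
      obtain ⟨u, _, hu⟩ := H.one e he (H.part v)
      rw [hu v ⟨hv, rfl⟩, hu v' ⟨hv', hvv.symm⟩]
    · intro i _
      obtain ⟨u, hu, _⟩ := H.one e he i
      exact ⟨u, hu.1, hu.2⟩
  rw [h1, Finset.card_univ, Fintype.card_fin]

/-- one part dominates -/
theorem part_dominates (H : Hyper r V) (hr : 1 ≤ r) (s : Fin r)
    (hs : ∀ e ∈ H.E, ∀ v ∈ e, ∀ u ∈ e, H.part u = s → deg H v ≤ deg H u) (D : ℕ) (hD : 1 ≤ D)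
    (hdeg : ∀ v, deg H v ≤ D) :
    (tau H : ℝ) ≤ ((r : ℝ) - ((r : ℝ) - 1) / D) * nu H := by
  refine criterion H hr (fun i => if i = s then 1 else 0) (fun i => by split_ifs <;> norm_num)
    (by simp) _ ?_
  intro e he
  obtain ⟨u, hu, huniq⟩ := H.one e he s
  have hD0 : (0 : ℝ) < D := by exact_mod_cast hD
  have hu1 : (1 : ℝ) ≤ deg H u := by exact_mod_cast deg_pos H he hu.1
  have huD : (deg H u : ℝ) ≤ D := by exact_mod_cast hdeg u
  have h1 : ∑ v ∈ e, (if H.part v = s then (1 : ℝ) else 0) / deg H v = 1 / deg H u := by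
    rw [Finset.sum_eq_single u]
    · rw [if_pos hu.2]
    · intro v hv hvu
      rw [if_neg, zero_div]
      intro hvs
      exact hvu (huniq v ⟨hv, hvs⟩)
    · intro hcon
      exact absurd hu.1 hcon
  rw [h1]
  have h2 : ∑ v ∈ e, ((deg H v : ℝ) - 1) ≤ r * ((deg H u : ℝ) - 1) := by
    calc ∑ v ∈ e, ((deg H v : ℝ) - 1) ≤ ∑ _v ∈ e, ((deg H u : ℝ) - 1) := by
          refine Finset.sum_le_sum fun v hv => ?_
          have : (deg H v : ℝ) ≤ deg H u := by exact_mod_cast hs e he v hv u hu.1 hu.2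
          linarith
      _ = _ := by rw [Finset.sum_const, nsmul_eq_mul, edge_card H he]
  have hr1 : (1 : ℝ) ≤ r := by exact_mod_cast hr
  have hupos : (0 : ℝ) < deg H u := by linarith
  calc (1 + ∑ v ∈ e, ((deg H v : ℝ) - 1)) * (1 / (deg H u : ℝ))
      ≤ (1 + r * ((deg H u : ℝ) - 1)) * (1 / (deg H u : ℝ)) :=
        mul_le_mul_of_nonneg_right (by linarith) (by positivity)
    _ = (r : ℝ) - ((r : ℝ) - 1) / deg H u := by
        field_simp
        ring
    _ ≤ (r : ℝ) - ((r : ℝ) - 1) / D := by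
        have : ((r : ℝ) - 1) / D ≤ ((r : ℝ) - 1) / deg H u :=
          div_le_div_of_nonneg_left (by linarith) hupos huD
        linarith

theorem sum_weights (H : Hyper r V) {e : Finset V} (he : e ∈ H.E) :
    ∑ v ∈ e, ((deg H v : ℝ) - 1) = ((∑ v ∈ e, (deg H v - 1) : ℕ) : ℝ) := by
  push_cast
  refine Finset.sum_congr rfl fun v hv => ?_
  have : 1 ≤ deg H v := deg_pos H he hv
  push_cast [Nat.cast_sub this]
  ring

/-- uniform weights, degrees in `[d, D]`, chord bound `1/x ≤ (d + D - x) / (d D)` -/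
theorem uniform_edge (H : Hyper r V) (hr : 1 ≤ r) (d D : ℕ) (hd : 1 ≤ d) {e : Finset V}
    (he : e ∈ H.E) (hdeg : ∀ v ∈ e, d ≤ deg H v ∧ deg H v ≤ D) :
    (1 + ∑ v ∈ e, ((deg H v : ℝ) - 1)) * ∑ v ∈ e, (1 / (r : ℝ)) / deg H v
      ≤ (1 + ((∑ v ∈ e, (deg H v - 1) : ℕ) : ℝ)) *
        (r * ((d : ℝ) + D - 1) - ((∑ v ∈ e, (deg H v - 1) : ℕ) : ℝ)) / (r * (d * D)) := by
  have hr0 : (0 : ℝ) < r := by exact_mod_cast hr
  have hd0 : (0 : ℝ) < d := by exact_mod_cast hd
  obtain ⟨v0, hv0⟩ := edge_nonempty H hr he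
  have hD1 : d ≤ D := (hdeg v0 hv0).1.trans (hdeg v0 hv0).2
  have hD0 : (0 : ℝ) < D := by
    have : 1 ≤ D := hd.trans hD1
    exact_mod_cast this
  have h1 : ∀ v ∈ e, (1 / (r : ℝ)) / deg H v
      ≤ (1 / (r : ℝ)) * ((((d : ℝ) + D - 1) - ((deg H v : ℝ) - 1)) / (d * D)) := by
    intro v hv
    rw [div_eq_mul_one_div]
    refine mul_le_mul_of_nonneg_left ?_ (by positivity)
    have hd1 : (d : ℝ) ≤ deg H v := by exact_mod_cast (hdeg v hv).1
    have hd2 : (deg H v : ℝ) ≤ D := by exact_mod_cast (hdeg v hv).2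
    have hdp : (0 : ℝ) < deg H v := by linarith
    rw [div_le_div_iff₀ hdp (by positivity)]
    nlinarith [mul_nonneg (sub_nonneg.2 hd1) (sub_nonneg.2 hd2)]
  have h2 : ∑ v ∈ e, (1 / (r : ℝ)) / deg H v
      ≤ (r * ((d : ℝ) + D - 1) - ∑ v ∈ e, ((deg H v : ℝ) - 1)) / (r * (d * D)) := by
    refine (Finset.sum_le_sum h1).trans (le_of_eq ?_)
    rw [← Finset.mul_sum, ← Finset.sum_div, Finset.sum_sub_distrib, Finset.sum_const,
      nsmul_eq_mul, edge_card H he]
    field_simp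
  rw [sum_weights H he] at h2 ⊢
  have hS0 : (0 : ℝ) ≤ 1 + ((∑ v ∈ e, (deg H v - 1) : ℕ) : ℝ) := by positivity
  refine (mul_le_mul_of_nonneg_left h2 hS0).trans (le_of_eq ?_)
  rw [mul_div_assoc]

theorem uniform_weights (hr : 1 ≤ r) : ∑ _i : Fin r, 1 / (r : ℝ) = 1 := by
  have hr0 : (0 : ℝ) < r := by exact_mod_cast hr
  rw [Finset.sum_const, Finset.card_univ, Fintype.card_fin, nsmul_eq_mul]
  field_simp

/-- degrees between `d` and `D` -/
theorem spread (H : Hyper r V) (hr : 1 ≤ r) (d D : ℕ) (hd : 1 ≤ d)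
    (hdeg : ∀ e ∈ H.E, ∀ v ∈ e, d ≤ deg H v ∧ deg H v ≤ D) :
    4 * r * d * D * tau H ≤ (1 + r * (d + D - 1)) ^ 2 * nu H := by
  rcases H.E.eq_empty_or_nonempty with hE | ⟨e1, he1⟩
  · have h1 := tau_le H (C := ∅) (fun e he => by rw [hE] at he; simp at he)
    have h2 : tau H = 0 := by simpa using h1
    rw [h2]
    simp
  have hr0 : (0 : ℝ) < r := by exact_mod_cast hr
  have hd0 : (0 : ℝ) < d := by exact_mod_cast hd
  obtain ⟨v0, hv0⟩ := edge_nonempty H hr he1
  have hD1 : d ≤ D := (hdeg e1 he1 v0 hv0).1.trans (hdeg e1 he1 v0 hv0).2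
  have hD0 : (0 : ℝ) < D := by
    have : 1 ≤ D := hd.trans hD1
    exact_mod_cast this
  have key := criterion H hr (fun _ => 1 / (r : ℝ)) (fun _ => by positivity)
    (uniform_weights hr) ((1 + r * ((d : ℝ) + D - 1)) ^ 2 / (4 * (r * (d * D)))) (by
      intro e he
      refine (uniform_edge H hr d D hd he (hdeg e he)).trans ?_
      set S : ℝ := ((∑ v ∈ e, (deg H v - 1) : ℕ) : ℝ) with hS
      rw [div_le_div_iff₀ (by positivity) (by positivity)]
      have h3 : 4 * ((1 + S) * (r * ((d : ℝ) + D - 1) - S)) ≤ (1 + r * ((d : ℝ) + D - 1)) ^ 2 := by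
        nlinarith [sq_nonneg (r * ((d : ℝ) + D - 1) - 2 * S - 1)]
      have h4 := mul_le_mul_of_nonneg_right h3
        (show (0 : ℝ) ≤ r * (d * D) by positivity)
      linarith)
  rw [div_mul_eq_mul_div, le_div_iff₀ (by positivity)] at key
  have h5 : ((1 + r * (d + D - 1) : ℕ) : ℝ) = 1 + r * ((d : ℝ) + D - 1) := by
    have h6 : 1 ≤ d + D := by omega
    push_cast [Nat.cast_sub h6]
    ring
  have h7 : ((4 * r * d * D * tau H : ℕ) : ℝ)
      ≤ (((1 + r * (d + D - 1)) ^ 2 * nu H : ℕ) : ℝ) := by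
    rw [Nat.cast_mul (_ ^ 2), Nat.cast_pow, h5]
    push_cast
    linarith
  exact_mod_cast h7

/-- degrees `D - 1` and `D`, `D ≤ r - 1` -/
theorem near_regular (H : Hyper r V) (D : ℕ) (hD : 1 ≤ D) (hDr : D + 1 ≤ r)
    (hdeg : ∀ e ∈ H.E, ∀ v ∈ e, D ≤ deg H v + 1 ∧ deg H v ≤ D) :
    (tau H : ℝ) ≤ ((r : ℝ) - 1) * nu H := by
  have hr : 1 ≤ r := by omega
  have hr0 : (0 : ℝ) < r := by exact_mod_cast hr
  rcases Nat.eq_or_lt_of_le hD with h1 | h1
  · -- `D = 1`
    subst h1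
    refine criterion H hr (fun _ => 1 / (r : ℝ)) (fun _ => by positivity)
      (uniform_weights hr) _ ?_
    intro e he
    refine (uniform_edge H hr 1 1 le_rfl he (fun v hv => ⟨deg_pos H he hv, (hdeg e he v hv).2⟩)).trans ?_
    have h2 : ∑ v ∈ e, (deg H v - 1) = 0 := by
      refine Finset.sum_eq_zero fun v hv => ?_
      have := (hdeg e he v hv).2
      omega
    rw [h2]
    have h3 : (2 : ℝ) ≤ r := by exact_mod_cast hDr
    have h4 : (1 + ((0 : ℕ) : ℝ)) * (r * (((1 : ℕ) : ℝ) + ((1 : ℕ) : ℝ) - 1) - ((0 : ℕ) : ℝ))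
        / (r * (((1 : ℕ) : ℝ) * ((1 : ℕ) : ℝ))) = 1 := by
      push_cast
      field_simp
      ring
    rw [h4]
    linarith
  · obtain ⟨d, rfl⟩ : ∃ d, D = d + 1 := ⟨D - 1, by omega⟩
    have hd : 1 ≤ d := by omega
    have hd0 : (0 : ℝ) < d := by exact_mod_cast hd
    refine criterion H hr (fun _ => 1 / (r : ℝ)) (fun _ => by positivity)
      (uniform_weights hr) _ ?_
    intro e he
    refine (uniform_edge H hr d (d + 1) hd he (fun v hv => by
      have := hdeg e he v hv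
      omega)).trans ?_
    rw [div_le_iff₀ (by positivity)]
    generalize (∑ v ∈ e, (deg H v - 1) : ℕ) = S
    have h2 : (0 : ℤ) ≤ ((S : ℤ) - r * d) * ((S : ℤ) - r * d + 1) := by
      rcases le_total ((S : ℤ) - r * d) (-1) with h | h
      · nlinarith
      · rcases eq_or_lt_of_le h with h' | h'
        · rw [← h']
          norm_num
        · have : (0 : ℤ) ≤ (S : ℤ) - r * d := by omega
          positivity
    have h3 : (0 : ℝ) ≤ ((S : ℝ) - r * d) * ((S : ℝ) - r * d + 1) := by exact_mod_cast h2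
    have h4 : (d : ℝ) + 2 ≤ r := by exact_mod_cast hDr
    push_cast
    nlinarith [mul_nonneg (mul_nonneg hr0.le hd0.le) (sub_nonneg.2 h4)]

theorem deg_three (H : Hyper r V) (hr : 6 ≤ r) (hdeg : ∀ v, deg H v ≤ 3) :
    (tau H : ℝ) ≤ ((r : ℝ) - 1) * nu H := by
  have hr1 : 1 ≤ r := by omega
  have hr0 : (0 : ℝ) < r := by exact_mod_cast hr1
  refine criterion H hr1 (fun _ => 1 / (r : ℝ)) (fun _ => by positivity)
    (uniform_weights hr1) _ ?_
  intro e he
  refine (uniform_edge H hr1 1 3 le_rfl he (fun v hv => ⟨deg_pos H he hv, hdeg v⟩)).trans ?_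
  rw [div_le_iff₀ (by positivity)]
  generalize (∑ v ∈ e, (deg H v - 1) : ℕ) = S
  push_cast
  rcases Nat.eq_or_lt_of_le hr with h1 | h1
  · subst h1
    have h2 : (0 : ℤ) ≤ ((S : ℤ) - 8) * ((S : ℤ) - 9) := by
      rcases le_total (S : ℤ) 8 with h | h
      · nlinarith
      · rcases eq_or_lt_of_le h with h' | h'
        · rw [← h']
          norm_num
        · nlinarith
    have h3 : (0 : ℝ) ≤ ((S : ℝ) - 8) * ((S : ℝ) - 9) := by exact_mod_cast h2
    push_cast
    nlinarith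
  · have h2 : (7 : ℝ) ≤ r := by exact_mod_cast h1
    nlinarith [sq_nonneg (2 * (S : ℝ) - 3 * r + 1)]

/-- passing to natural numbers -/
theorem to_nat (H : Hyper r V) (hr : 1 ≤ r) (h : (tau H : ℝ) ≤ ((r : ℝ) - 1) * nu H) :
    tau H ≤ (r - 1) * nu H := by
  have h1 : ((tau H : ℕ) : ℝ) ≤ (((r - 1) * nu H : ℕ) : ℝ) := by
    push_cast [Nat.cast_sub hr]
    exact h
  exact_mod_cast h1

theorem dom_nat (H : Hyper r V) (hr : 1 ≤ r) (s : Fin r)
    (hs : ∀ e ∈ H.E, ∀ v ∈ e, ∀ u ∈ e, H.part u = s → deg H v ≤ deg H u) (D : ℕ) (hD : 1 ≤ D)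
    (hdeg : ∀ v, deg H v ≤ D) :
    D * tau H ≤ (1 + r * (D - 1)) * nu H := by
  have h := part_dominates H hr s hs D hD hdeg
  have hD0 : (0 : ℝ) < D := by exact_mod_cast hD
  have h1 : ((D * tau H : ℕ) : ℝ) ≤ (((1 + r * (D - 1)) * nu H : ℕ) : ℝ) := by
    push_cast [Nat.cast_sub hD]
    have h2 := mul_le_mul_of_nonneg_left h hD0.le
    have h3 : (D : ℝ) * (((r : ℝ) - ((r : ℝ) - 1) / D) * nu H)
        = (1 + r * ((D : ℝ) - 1)) * nu H := by
      field_simp
      ring
    rw [h3] at h2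
    exact h2
  exact_mod_cast h1

theorem dom_ryser (H : Hyper r V) (hr : 1 ≤ r) (s : Fin r)
    (hs : ∀ e ∈ H.E, ∀ v ∈ e, ∀ u ∈ e, H.part u = s → deg H v ≤ deg H u)
    (hdeg : ∀ v, deg H v + 1 ≤ r) (hr2 : 2 ≤ r) : tau H ≤ (r - 1) * nu H := by
  have h := dom_nat H hr s hs (r - 1) (by omega) (fun v => by have := hdeg v; omega)
  have h1 : 1 + r * (r - 1 - 1) = (r - 1) * (r - 1) := by
    obtain ⟨k, rfl⟩ : ∃ k, r = k + 2 := ⟨r - 2, by omega⟩
    have e1 : k + 2 - 1 = k + 1 := by omega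
    rw [e1]
    have e2 : k + 1 - 1 = k := by omega
    rw [e2]
    ring
  rw [h1, mul_assoc] at h
  exact Nat.le_of_mul_le_mul_left h (by omega)

end Ryser
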